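import Vale.Agent.P335.Chain

/-!
# P335 — the Kannan–Tetali–Vempala conjecture for simple graphs
-/

namespace Vale.Agent.Results.P335.KTV

open Vale.P335

/-- For every `n ≥ 4` and every graphical degree vector `d` on `Fin n`, the set of times `t` at
which the switch chain is within total variation distance `1/4` of uniform from every start is
nonempty with least element `tmix n d`, and `tmix n d ≤ n ^ 6`; moreover the distance is at most
`1/4` at every time `t ≥ n ^ 6`. -/
theorem result :
    ∀ n : ℕ, 4 ≤ n → ∀ d : Fin n → ℕ, Graphical n d →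
      IsLeast {t : ℕ | ∀ G : OmegaD n d, tvDist n d t G ≤ 1 / 4} (tmix n d) ∧
      tmix n d ≤ n ^ 6 ∧
      ∀ t : ℕ, n ^ 6 ≤ t → ∀ G : OmegaD n d, tvDist n d t G ≤ 1 / 4 := by
  intro n hn d _
  obtain ⟨h1, h2, h3⟩ := ktv n hn d
  exact ⟨⟨Nat.sInf_mem h1, fun t ht => Nat.sInf_le ht⟩, h2, h3⟩

end Vale.Agent.Results.P335.KTV
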